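import Vale.Agent.P218.CY.Mom

/-! The cubic form of the cylinder. -/

open MeasureTheory Set Filter Topology
open scoped ENNReal NNReal ContDiff

namespace Vale.Agent.P218.CY

open Vale.Agent.P218.H63 Vale.Agent.P218.H588

namespace C326

theorem inner3c (x y : E3) : inner ℝ x y = x 0 * y 0 + x 1 * y 1 + x 2 * y 2 := by
  rw [PiLp.inner_apply, Fin.sum_univ_three]
  simp [mul_comm]

theorem trace3c (A : E3 →ₗ[ℝ] E3) : LinearMap.trace ℝ E3 A =
    A (ee 0) 0 + A (ee 1) 1 + A (ee 2) 2 := by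
  rw [LinearMap.trace_eq_sum_inner A (EuclideanSpace.basisFun (Fin 3) ℝ), Fin.sum_univ_three]
  rw [inner3c, inner3c, inner3c]
  simp [ee]

theorem hasGradientAt_cv (c : ℝ) (x : E3) : HasGradientAt (cv c) ((2 * c * x 2) • ee 2) x := by
  rw [hasGradientAt_iff_hasFDerivAt]
  have h := ((hasF_pow 2 2 x).sub_const 2).const_mul c
  refine h.congr_fderiv ?_
  ext v
  rw [InnerProductSpace.toDual_apply_apply, inner3c]
  simp [ee_ap]
  ring

theorem gradient_cv (c : ℝ) (x : E3) : gradient (cv c) x = (2 * c * x 2) • ee 2 :=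
  (hasGradientAt_cv c x).gradient

theorem pr_zero (x : E3) : pr x 0 = x 0 := by simp [pr, ee_ap]
theorem pr_one (x : E3) : pr x 1 = x 1 := by simp [pr, ee_ap]
theorem pr_two (x : E3) : pr x 2 = 0 := by simp [pr, ee_ap]

theorem r2_cyl {x : E3} (hx : x ∈ cyl) : r2 x = 2 := hx

theorem hess_on (hG : RowG) {x : E3} (hx : x ∈ cyl) (h : E3) :
    fderiv ℝ (gradient cw) x h = (√2)⁻¹ • pr h - ((√2)⁻¹ ^ 3 * inner ℝ (pr x) h) • pr x := by
  have h1 := (hG x (by rw [r2_cyl hx]; norm_num)).2 h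
  rwa [r2_cyl hx] at h1

/-- the integrand on the cylinder -/
theorem cub_on (hG : RowG) (c : ℝ) {x : E3} (hx : x ∈ cyl) :
    (cv c x * inner ℝ (fderiv ℝ (gradient cw) x (gradient (cv c) x)) (gradient (cv c) x)
    + cv c x * inner ℝ (fderiv ℝ (gradient cw) x (gradient (cv c) x)) (gradient (cv c) x)
    + cv c x * inner ℝ (fderiv ℝ (gradient cw) x (gradient (cv c) x)) (gradient (cv c) x)
    - LinearMap.trace ℝ E3 ((fderiv ℝ (gradient cw) x).comp
        ((fderiv ℝ (gradient cw) x).comp (fderiv ℝ (gradient cw) x))).toLinearMap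
      * (cv c x * cv c x * cv c x)) = -((√2)⁻¹ ^ 3 * c ^ 3) * (x 2 ^ 2 - 2) ^ 3 := by
  have hx2 : x 0 ^ 2 + x 1 ^ 2 = 2 := hx
  have hs : (√2)⁻¹ ^ 2 = (1 / 2 : ℝ) := by
    rw [inv_pow, Real.sq_sqrt (by norm_num)]; norm_num
  have hH := hess_on hG hx
  have e1 : inner ℝ (fderiv ℝ (gradient cw) x (gradient (cv c) x)) (gradient (cv c) x) = 0 := by
    rw [hH, gradient_cv, inner3c]
    simp [ee_ap, pr_zero, pr_one, pr_two]
  have e0 : ∀ h : E3, fderiv ℝ (gradient cw) x h 0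
      = (√2)⁻¹ * (1 / 2) * (x 1 ^ 2 * h 0 - x 0 * x 1 * h 1) := by
    intro h
    rw [hH, inner3c]
    simp only [PiLp.sub_apply, PiLp.smul_apply, smul_eq_mul, pr_zero, pr_one, pr_two]
    linear_combination (-(√2)⁻¹ * (x 0 * h 0 + x 1 * h 1) * x 0) * hs
      - ((√2)⁻¹ * h 0 * (1 / 2)) * hx2
  have e1' : ∀ h : E3, fderiv ℝ (gradient cw) x h 1
      = (√2)⁻¹ * (1 / 2) * (x 0 ^ 2 * h 1 - x 0 * x 1 * h 0) := by
    intro h
    rw [hH, inner3c]
    simp only [PiLp.sub_apply, PiLp.smul_apply, smul_eq_mul, pr_zero, pr_one, pr_two]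
    linear_combination (-(√2)⁻¹ * (x 0 * h 0 + x 1 * h 1) * x 1) * hs
      - ((√2)⁻¹ * h 1 * (1 / 2)) * hx2
  have e2 : ∀ h : E3, fderiv ℝ (gradient cw) x h 2 = 0 := by
    intro h
    rw [hH]
    simp [pr_two]
  have e3 : LinearMap.trace ℝ E3 ((fderiv ℝ (gradient cw) x).comp
        ((fderiv ℝ (gradient cw) x).comp (fderiv ℝ (gradient cw) x))).toLinearMap
      = (√2)⁻¹ ^ 3 := by
    rw [trace3c]
    simp only [ContinuousLinearMap.coe_coe, ContinuousLinearMap.comp_apply, e0, e1', e2]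
    simp only [ee_ap]
    simp
    simp only [← inv_pow]
    linear_combination ((√2)⁻¹ ^ 3 / 8 * ((x 0 ^ 2 + x 1 ^ 2) ^ 2 + 2 * (x 0 ^ 2 + x 1 ^ 2) + 4))
      * hx2
  rw [e1, e3]
  unfold cv
  ring

end C326

open C326 in
/-- (R6) the cubic form -/
theorem rowC (hG : RowG) (hP : RowP) (hM : RowM) : RowC := by
  intro c hc
  have hcl : IsClosed cyl := by
    have : Continuous fun x : E3 => x 0 ^ 2 + x 1 ^ 2 := by fun_prop
    exact isClosed_singleton.preimage this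
  have key : cubicForm 2 cyl cw (cv c) (cv c) (cv c)
      = ∫ x, -((√2)⁻¹ ^ 3 * c ^ 3) * (x 2 ^ 2 - 2) ^ 3 ∂(gaussArea 2 cyl) := by
    unfold cubicForm
    refine integral_congr_ae ?_
    have h1 : ∀ᵐ x ∂(gaussArea 2 cyl), x ∈ cyl :=
      (withDensity_absolutelyContinuous _ _).ae_le (ae_restrict_mem hcl.measurableSet)
    filter_upwards [h1] with x hx
    exact cub_on hG c hx
  rw [key, integral_const_mul, cub_int hM hP]
  have h2 := mass_pos hM
  have h3 : (√2)⁻¹ ≠ (0 : ℝ) := by positivity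
  have h4 : ((√2)⁻¹ ^ 3 * c ^ 3 : ℝ) ≠ 0 := mul_ne_zero (pow_ne_zero _ h3) (pow_ne_zero _ hc)
  exact mul_ne_zero (neg_ne_zero.2 h4) (by positivity)

end Vale.Agent.P218.CY
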