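import Vale.Agent.P218.CY.Defs
import Vale.Agent.P218.H787.Mom

/-! Polynomials are dense in `L²` of the Gaussian area of the cylinder. -/

open MeasureTheory Set Filter Topology
open scoped ENNReal NNReal ContDiff

namespace Vale.Agent.P218.CY

open Vale.Agent.P218.H63 Vale.Agent.P218.H588 Vale.Agent.P218.H787

lemma inner_eq_sum (x ξ : E3) : inner ℝ x ξ = ∑ i : Fin 3, ξ i * x i := by
  rw [PiLp.inner_apply]
  refine Finset.sum_congr rfl fun i _ => ?_
  simp

theorem rowD (hE : ∀ c : ℝ, Integrable (fun x : E3 => Real.exp (c * ‖x‖)) (gaussArea 2 cyl)) :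
    RowD := by
  intro u hu hp
  refine ae_zero_of_moments hE hu fun ξ n => ?_
  have h := hp ((∑ i : Fin 3, MvPolynomial.C (ξ i) * MvPolynomial.X i) ^ n)
  rw [← h]
  refine integral_congr_ae (Eventually.of_forall fun x => ?_)
  simp only [map_pow, map_sum, map_mul, MvPolynomial.eval_C, MvPolynomial.eval_X]
  rw [inner_eq_sum]

end Vale.Agent.P218.CY
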