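import Vale.Agent.P218.CY.H585.Meas

/-! Exponential moments of the Gaussian area of the cylinder. -/

open MeasureTheory Set Filter

namespace Vale.Agent.P218.CY

open Vale.Agent.P218.H63 H585

theorem integrable_gauss_exp (c : ℝ) :
    Integrable (fun z : ℝ => Real.exp (-(2 + z ^ 2) / 4) * Real.exp (c * √(2 + z ^ 2))) volume := by
  have h1 : Integrable (fun z : ℝ => Real.exp (2 * c ^ 2) * Real.exp (-(1 / 8) * z ^ 2)) volume :=
    (integrable_exp_neg_mul_sq (by norm_num)).const_mul _
  refine h1.mono' (by fun_prop) (Eventually.of_forall fun z => ?_)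
  have ht2 : √(2 + z ^ 2) ^ 2 = 2 + z ^ 2 := Real.sq_sqrt (by positivity)
  set t := √(2 + z ^ 2) with hdef
  rw [Real.norm_eq_abs, abs_of_nonneg (by positivity), ← Real.exp_add, ← Real.exp_add]
  refine Real.exp_le_exp.2 ?_
  nlinarith [sq_nonneg (t - 4 * c)]

/-- all exponential moments are finite -/
theorem rowE (c : ℝ) : Integrable (fun x : E3 => Real.exp (c * ‖x‖)) (gaussArea 2 cyl) := by
  rw [integrable_gaussArea_iff]
  refine (integrable_ht _ (integrable_gauss_exp c)).congr ?_
  filter_upwards [ae_mem_cyl] with x hx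
  rw [← norm_eq hx, neg_div, neg_div, norm_sq_eq hx]

end Vale.Agent.P218.CY
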