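import Vale.Agent.P218.CY.H585.Meas

/-! Invariance of the area of the cylinder. -/

namespace Vale.Agent.P218.CY

theorem rowI : RowI := H585.map_nu

end Vale.Agent.P218.CY
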