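import Vale.Agent.P218.CY.H585.Meas

/-! Gaussian moments and mass of the cylinder. -/

namespace Vale.Agent.P218.CY

theorem rowM : RowM := ⟨H585.moments, H585.mass_pos⟩

end Vale.Agent.P218.CY
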