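import Vale.Agent.P218.CY.Defs
import Vale.Agent.P218.H63.Geom

/-! Row Q of the round cylinder: the test functions of the weak Jacobi equation may be polynomials
(smooth cut-offs and dominated convergence). -/

open MeasureTheory Set Filter Topology
open scoped ENNReal NNReal ContDiff RealInnerProductSpace

namespace Vale.Agent.P218.CY

open Vale.Agent.P218.H63 Vale.Agent.P218.H588

namespace Q

/-- polynomials have temperate growth -/
lemma poly_tg (p : MvPolynomial (Fin 3) ℝ) :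
    Function.HasTemperateGrowth (fun x : E3 => MvPolynomial.eval (fun i => x i) p) := by
  induction p using MvPolynomial.induction_on with
  | C a => simp [Function.HasTemperateGrowth.const]
  | add p q hp hq => simpa using! hp.add hq
  | mul_X p i hp =>
    have := hp.mul (EuclideanSpace.proj i : E3 →L[ℝ] ℝ).hasTemperateGrowth
    simpa using! this

lemma norm_hess_le {f : E3 → ℝ} (hf : ContDiff ℝ 2 f) (x : E3) :
    ‖fderiv ℝ (gradient f) x‖ ≤ ‖iteratedFDeriv ℝ 2 f x‖ := by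
  have h3 : ‖iteratedFDeriv ℝ 2 f x‖ = ‖fderiv ℝ (fderiv ℝ f) x‖ := by
    rw [← norm_iteratedFDeriv_fderiv, norm_iteratedFDeriv_one]
  rw [h3]
  refine ContinuousLinearMap.opNorm_le_bound _ (norm_nonneg (fderiv ℝ (fderiv ℝ f) x)) fun a => ?_
  have h1 := inner_hess hf x a (fderiv ℝ (gradient f) x a)
  rw [real_inner_self_eq_norm_sq] at h1
  have h2 := ContinuousLinearMap.le_opNorm₂ (fderiv ℝ (fderiv ℝ f) x) a
    (fderiv ℝ (gradient f) x a)
  rw [← h1, Real.norm_eq_abs, abs_of_nonneg (sq_nonneg _)] at h2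
  rcases (norm_nonneg (fderiv ℝ (gradient f) x a)).eq_or_lt with h | h
  · rw [← h]; positivity
  · nlinarith

lemma abs_trace3 (A : E3 →L[ℝ] E3) : |LinearMap.trace ℝ E3 A.toLinearMap| ≤ 3 * ‖A‖ := by
  have := abs_trace_le A
  simpa using this

lemma norm_pr_sq (x : E3) : ‖pr x‖ ^ 2 = r2 x := by
  rw [EuclideanSpace.norm_sq_eq, Fin.sum_univ_three]
  simp [pr, ee, r2]

lemma norm_pr_le (x : E3) : ‖pr x‖ ≤ ‖x‖ := by
  have h : ‖pr x‖ ^ 2 ≤ ‖x‖ ^ 2 := by
    rw [norm_pr_sq, EuclideanSpace.norm_sq_eq, Fin.sum_univ_three]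
    simp only [Real.norm_eq_abs, sq_abs, r2]
    nlinarith [sq_nonneg (x 2)]
  exact (sq_le_sq₀ (norm_nonneg _) (norm_nonneg _)).1 h

lemma inv_sqrt_le : (√(2 : ℝ))⁻¹ ≤ 1 := by
  apply inv_le_one_of_one_le₀
  rw [Real.one_le_sqrt]; norm_num

lemma inv_sqrt_nn : 0 ≤ (√(2 : ℝ))⁻¹ := by positivity

lemma norm_grad_cw (hG : RowG) {x : E3} (hx : x ∈ cyl) : ‖gradient cw x‖ ≤ 2 := by
  have hr : r2 x = 2 := hx
  rw [(hG x (by rw [hr]; norm_num)).1, norm_smul, hr, Real.norm_eq_abs, abs_of_nonneg inv_sqrt_nn]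
  have h1 : ‖pr x‖ ^ 2 = 2 := by rw [norm_pr_sq, hr]
  have h2 : ‖pr x‖ ≤ 2 := by nlinarith [norm_nonneg (pr x)]
  calc (√(2 : ℝ))⁻¹ * ‖pr x‖ ≤ 1 * 2 := by
        apply mul_le_mul inv_sqrt_le h2 (norm_nonneg _) zero_le_one
    _ = 2 := by norm_num

lemma norm_hess_cw (hG : RowG) {x : E3} (hx : x ∈ cyl) : ‖fderiv ℝ (gradient cw) x‖ ≤ 3 := by
  have hr : r2 x = 2 := hx
  refine ContinuousLinearMap.opNorm_le_bound _ (by norm_num) fun h => ?_
  rw [(hG x (by rw [hr]; norm_num)).2 h, hr]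
  have h1 : ‖pr x‖ ^ 2 = 2 := by rw [norm_pr_sq, hr]
  have h4 := inv_sqrt_le
  have h5 := inv_sqrt_nn
  have h6 : (√(2 : ℝ))⁻¹ ^ 3 ≤ 1 := pow_le_one₀ h5 h4
  have h7 : 0 ≤ (√(2 : ℝ))⁻¹ ^ 3 := by positivity
  have h8 : |inner ℝ (pr x) h| ≤ ‖pr x‖ * ‖h‖ := abs_real_inner_le_norm _ _
  calc ‖(√(2 : ℝ))⁻¹ • pr h - ((√(2 : ℝ))⁻¹ ^ 3 * inner ℝ (pr x) h) • pr x‖
      ≤ ‖(√(2 : ℝ))⁻¹ • pr h‖ + ‖((√(2 : ℝ))⁻¹ ^ 3 * inner ℝ (pr x) h) • pr x‖ := norm_sub_le _ _
    _ = (√(2 : ℝ))⁻¹ * ‖pr h‖ + (√(2 : ℝ))⁻¹ ^ 3 * |inner ℝ (pr x) h| * ‖pr x‖ := by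
        rw [norm_smul, norm_smul, Real.norm_eq_abs, Real.norm_eq_abs, abs_mul,
          abs_of_nonneg h5, abs_of_nonneg h7]
    _ ≤ 1 * ‖h‖ + 1 * (‖pr x‖ * ‖h‖) * ‖pr x‖ := by
        gcongr
        exact norm_pr_le h
    _ = ‖h‖ + ‖pr x‖ ^ 2 * ‖h‖ := by ring
    _ = 3 * ‖h‖ := by rw [h1]; ring

/-- the stability operator is bounded by the 2-jet -/
lemma abs_stab_le (hG : RowG) {η : E3 → ℝ} (hη : ContDiff ℝ 2 η) {x : E3} (hx : x ∈ cyl) {B : ℝ}
    (hB : ∀ n ≤ 2, ‖iteratedFDeriv ℝ n η x‖ ≤ B) : |stab cw η x| ≤ 40 * (1 + ‖x‖) * B := by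
  have hB0 : 0 ≤ B := (norm_nonneg _).trans (hB 0 (by norm_num))
  have h0 : |η x| ≤ B := by
    have := hB 0 (by norm_num)
    rwa [norm_iteratedFDeriv_zero, Real.norm_eq_abs] at this
  have h1 : ‖gradient η x‖ ≤ B := by
    have := hB 1 (by norm_num)
    rw [norm_iteratedFDeriv_one] at this
    rwa [norm_gradient]
  have h2 : ‖fderiv ℝ (gradient η) x‖ ≤ B := (norm_hess_le hη x).trans (hB 2 le_rfl)
  have g1 := norm_grad_cw hG hx
  have g2 := norm_hess_cw hG hx
  have e1 : |lap η x| ≤ 3 * B := by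
    refine (abs_trace3 _).trans ?_
    gcongr
  have e2 : |inner ℝ (fderiv ℝ (gradient η) x (gradient cw x)) (gradient cw x)| ≤ 4 * B := by
    refine (abs_real_inner_le_norm _ _).trans ?_
    have h3 := (fderiv ℝ (gradient η) x).le_opNorm (gradient cw x)
    calc ‖fderiv ℝ (gradient η) x (gradient cw x)‖ * ‖gradient cw x‖
        ≤ (‖fderiv ℝ (gradient η) x‖ * ‖gradient cw x‖) * ‖gradient cw x‖ := by gcongr
      _ ≤ (B * 2) * 2 := by gcongr
      _ = 4 * B := by ring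
  have e3 : |inner ℝ x (gradient η x)| ≤ ‖x‖ * B :=
    (abs_real_inner_le_norm _ _).trans (by gcongr)
  have e4 : |hessSq cw x| ≤ 27 := by
    refine (abs_trace3 _).trans ?_
    have h4 := ContinuousLinearMap.opNorm_comp_le (fderiv ℝ (gradient cw) x)
      (fderiv ℝ (gradient cw) x)
    have h5 : ‖fderiv ℝ (gradient cw) x‖ * ‖fderiv ℝ (gradient cw) x‖ ≤ 3 * 3 := by gcongr
    linarith
  have e5 : |(hessSq cw x + 1 / 2) * η x| ≤ 28 * B := by
    rw [abs_mul]
    have h6 : |hessSq cw x + 1 / 2| ≤ 28 := by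
      refine (abs_add_le _ _).trans ?_
      rw [abs_of_pos (by norm_num : (0 : ℝ) < 1 / 2)]
      linarith
    gcongr
  unfold stab
  have hxn := norm_nonneg x
  rw [abs_le] at *
  constructor <;> nlinarith [mul_nonneg hxn hB0, e1.1, e1.2, e2.1, e2.2, e3.1, e3.2, e5.1, e5.2]

lemma continuous_trace :
    Continuous fun A : E3 →L[ℝ] E3 => LinearMap.trace ℝ E3 A.toLinearMap := by
  have h : (fun A : E3 →L[ℝ] E3 => LinearMap.trace ℝ E3 A.toLinearMap)
      = fun A => ∑ i, ⟪stdOrthonormalBasis ℝ E3 i, A (stdOrthonormalBasis ℝ E3 i)⟫ := by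
    ext A
    rw [LinearMap.trace_eq_sum_inner A.toLinearMap (stdOrthonormalBasis ℝ E3)]
    rfl
  rw [h]
  fun_prop

lemma continuous_stab {w η : E3 → ℝ} (hw : ContDiff ℝ 2 w) (hη : ContDiff ℝ 2 η) :
    Continuous (stab w η) := by
  have g1 : ContDiff ℝ 1 (gradient η) := contDiff_gradient hη (by norm_num)
  have g2 : ContDiff ℝ 1 (gradient w) := contDiff_gradient hw (by norm_num)
  have k1 : Continuous (fderiv ℝ (gradient η)) := g1.continuous_fderiv (by norm_num)
  have k2 : Continuous (fderiv ℝ (gradient w)) := g2.continuous_fderiv (by norm_num)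
  have c1 : Continuous (lap η) := continuous_trace.comp k1
  have c2 : Continuous (hessSq w) := continuous_trace.comp (k2.clm_comp k2)
  have c3 : Continuous fun x => fderiv ℝ (gradient η) x (gradient w x) :=
    k1.clm_apply g2.continuous
  unfold stab
  exact ((c1.sub (c3.inner g2.continuous)).sub
    ((continuous_id.inner g1.continuous).div_const 2)).add
      ((c2.add continuous_const).mul hη.continuous)

/-- the stability operator depends only on the germ -/
lemma stab_congr {w f g : E3 → ℝ} {x : E3} (h : f =ᶠ[𝓝 x] g) : stab w f x = stab w g x := by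
  have h1 : fderiv ℝ f =ᶠ[𝓝 x] fderiv ℝ g := h.fderiv
  have h2 : gradient f =ᶠ[𝓝 x] gradient g := by
    filter_upwards [h1] with y hy
    rw [gradient, gradient, hy]
  unfold stab lap
  rw [h2.fderiv_eq, h2.eq_of_nhds, h.eq_of_nhds]

/-- a smooth bump, one on the unit ball -/
noncomputable def bump : ContDiffBump (0 : E3) := ⟨1, 2, zero_lt_one, one_lt_two⟩

/-- cut-off at radius `m + 1` -/
noncomputable def cut (m : ℕ) (x : E3) : ℝ := bump (((m : ℝ) + 1)⁻¹ • x)

lemma bump_bound : ∃ K : ℝ, 0 ≤ K ∧ ∀ n ≤ 2, ∀ y : E3,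
    ‖iteratedFDeriv ℝ n (bump : E3 → ℝ) y‖ ≤ K := by
  have h : ∀ n : ℕ, ∃ K : ℝ, ∀ y, ‖iteratedFDeriv ℝ n (bump : E3 → ℝ) y‖ ≤ K := fun n =>
    (bump.hasCompactSupport.iteratedFDeriv n).exists_bound_of_continuous
      ((bump.contDiff (n := (n : ℕ∞))).continuous_iteratedFDeriv le_rfl)
  choose K hK using h
  refine ⟨max 0 (max (K 0) (max (K 1) (K 2))), le_max_left _ _, fun n hn y => ?_⟩
  refine (hK n y).trans ?_
  interval_cases n <;> simp

lemma cut_bound : ∃ K : ℝ, 0 ≤ K ∧ ∀ m : ℕ, ∀ n ≤ 2, ∀ x : E3,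
    ‖iteratedFDeriv ℝ n (cut m) x‖ ≤ K := by
  obtain ⟨K, hK0, hK⟩ := bump_bound
  refine ⟨K, hK0, fun m n hn x => ?_⟩
  have e : cut m = (bump : E3 → ℝ) ∘ ((((m : ℝ) + 1)⁻¹) • ContinuousLinearMap.id ℝ E3) := rfl
  have hc : ‖(((m : ℝ) + 1)⁻¹) • ContinuousLinearMap.id ℝ E3‖ ≤ 1 := by
    rw [norm_smul]
    have h1 : ‖((m : ℝ) + 1)⁻¹‖ ≤ 1 := by
      rw [Real.norm_eq_abs, abs_of_nonneg (by positivity)]
      apply inv_le_one_of_one_le₀
      have := Nat.cast_nonneg (α := ℝ) m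
      linarith
    exact mul_le_one₀ h1 (norm_nonneg _) ContinuousLinearMap.norm_id_le
  rw [e, ContinuousLinearMap.iteratedFDeriv_comp_right _ (bump.contDiff (n := (n : ℕ∞))) x le_rfl]
  refine (ContinuousMultilinearMap.norm_compContinuousLinearMap_le _ _).trans ?_
  calc _ ≤ K * 1 := by
        gcongr
        · exact hK n hn _
        · exact Finset.prod_le_one (fun _ _ => norm_nonneg _) fun _ _ => hc
    _ = K := mul_one K

lemma cut_contDiff (m : ℕ) : ContDiff ℝ ∞ (cut m) :=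
  (bump.contDiff (n := ⊤)).comp (contDiff_const_smul _)

lemma cut_compact (m : ℕ) : HasCompactSupport (cut m) :=
  bump.hasCompactSupport.comp_smul (by positivity)

lemma cut_one (m : ℕ) {x : E3} (hx : ‖x‖ < m + 1) : cut m =ᶠ[𝓝 x] fun _ => 1 := by
  have h1 : ∀ᶠ y in 𝓝 x, ‖y‖ < m + 1 := (isOpen_lt continuous_norm continuous_const).mem_nhds hx
  filter_upwards [h1] with y hy
  apply bump.one_of_mem_closedBall
  have hm : (0 : ℝ) < m + 1 := by positivity
  rw [mem_closedBall_zero_iff, norm_smul, Real.norm_eq_abs, abs_of_pos (inv_pos.2 hm)]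
  show _ ≤ (1 : ℝ)
  rw [inv_mul_le_iff₀ hm]
  linarith

end Q

open Q in
/-- row Q: the weak equation may be tested with polynomials -/
theorem rowQ (hW : RowW) (hG : RowG) (hM : RowM) : RowQ := by
  intro u hu p
  set f : E3 → ℝ := fun x => MvPolynomial.eval (fun i => x i) p with hf
  have htg : Function.HasTemperateGrowth f := poly_tg p
  have hfs : ContDiff ℝ ∞ f := htg.1
  obtain ⟨k, C, hC0, hC⟩ := htg.norm_iteratedFDeriv_le_uniform 2
  obtain ⟨K, hK0, hK⟩ := cut_bound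
  have hηs : ∀ m, ContDiff ℝ ∞ fun x => cut m x * f x := fun m => (cut_contDiff m).mul hfs
  have hcw2 : ContDiff ℝ 2 cw := by exact_mod_cast contDiff_infty.1 hW.1 2
  have hη2 : ∀ m, ContDiff ℝ 2 fun x => cut m x * f x := fun m => by
    exact_mod_cast contDiff_infty.1 (hηs m) 2
  -- the uniform bound
  have hB : ∀ m x, ∀ n ≤ 2, ‖iteratedFDeriv ℝ n (fun x => cut m x * f x) x‖
      ≤ 4 * (K * (C * (1 + ‖x‖) ^ k)) := by
    intro m x n hn
    have h1 := norm_iteratedFDeriv_mul_le (𝕜 := ℝ) (N := (n : WithTop ℕ∞))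
      ((cut_contDiff m).of_le (by exact_mod_cast le_top))
      (hfs.of_le (by exact_mod_cast le_top)) x (n := n) le_rfl
    refine h1.trans ?_
    have hD : 0 ≤ K * (C * (1 + ‖x‖) ^ k) := by positivity
    calc ∑ i ∈ Finset.range (n + 1), (n.choose i : ℝ) * ‖iteratedFDeriv ℝ i (cut m) x‖
          * ‖iteratedFDeriv ℝ (n - i) f x‖
        ≤ ∑ i ∈ Finset.range (n + 1), (n.choose i : ℝ) * (K * (C * (1 + ‖x‖) ^ k)) := by
          refine Finset.sum_le_sum fun i hi => ?_
          have hi' : i ≤ 2 := by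
            have := Finset.mem_range.1 hi
            omega
          rw [mul_assoc]
          gcongr
          · exact hK m i hi' x
          · exact hC (n - i) (by omega) x
      _ = 2 ^ n * (K * (C * (1 + ‖x‖) ^ k)) := by
          rw [← Finset.sum_mul]
          congr 1
          exact_mod_cast Nat.sum_range_choose n
      _ ≤ 4 * (K * (C * (1 + ‖x‖) ^ k)) := by
          gcongr
          calc (2 : ℝ) ^ n ≤ 2 ^ 2 := pow_le_pow_right₀ (by norm_num) hn
            _ = 4 := by norm_num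
  -- almost every point is on the cylinder
  have hcl : IsClosed cyl := by
    have : cyl = r2 ⁻¹' {2} := rfl
    rw [this]
    apply IsClosed.preimage _ isClosed_singleton
    unfold r2
    fun_prop
  have hae : ∀ᵐ x ∂(gaussArea 2 cyl), x ∈ cyl :=
    (withDensity_absolutelyContinuous _ _).ae_le (ae_restrict_mem hcl.measurableSet)
  have hu2 := hu.sq_int
  -- integrability of the majorant
  have hpow : MemLp (fun x : E3 => (1 + ‖x‖) ^ (k + 1)) 2 (gaussArea 2 cyl) := by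
    rw [memLp_two_iff_integrable_sq
      ((by fun_prop : Continuous fun x : E3 => (1 + ‖x‖) ^ (k + 1)).aestronglyMeasurable)]
    have := hM.1 ((k + 1) * 2)
    simpa [pow_mul] using this
  have hmaj : Integrable (fun x : E3 => 40 * 4 * K * C * (|u x| * (1 + ‖x‖) ^ (k + 1)))
      (gaussArea 2 cyl) := by
    apply Integrable.const_mul
    exact MemLp.integrable_mul hu2.abs hpow
  have hlim : Tendsto (fun m : ℕ => ∫ x, u x * stab cw (fun x => cut m x * f x) x
      ∂(gaussArea 2 cyl)) atTop (𝓝 (∫ x, u x * stab cw f x ∂(gaussArea 2 cyl))) := by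
    refine tendsto_integral_of_dominated_convergence _ (fun m => ?_) hmaj (fun m => ?_) ?_
    · exact hu2.1.mul (continuous_stab hcw2 (hη2 m)).aestronglyMeasurable
    · filter_upwards [hae] with x hx
      rw [Real.norm_eq_abs, abs_mul]
      have h1 := abs_stab_le hG (hη2 m) hx (hB m x)
      calc |u x| * |stab cw (fun x => cut m x * f x) x|
          ≤ |u x| * (40 * (1 + ‖x‖) * (4 * (K * (C * (1 + ‖x‖) ^ k)))) := by gcongr
        _ = 40 * 4 * K * C * (|u x| * (1 + ‖x‖) ^ (k + 1)) := by ring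
    · refine Eventually.of_forall fun x => ?_
      apply tendsto_const_nhds.congr'
      obtain ⟨m0, hm0⟩ := exists_nat_gt ‖x‖
      filter_upwards [eventually_ge_atTop m0] with m hm
      have h1 : ‖x‖ < m + 1 := by
        have : (m0 : ℝ) ≤ m := by exact_mod_cast hm
        linarith
      have h2 : (fun x => cut m x * f x) =ᶠ[𝓝 x] f := by
        filter_upwards [cut_one m h1] with y hy
        rw [hy, one_mul]
      rw [stab_congr h2]
  have h0 : ∀ m, ∫ x, u x * stab cw (fun x => cut m x * f x) x ∂(gaussArea 2 cyl) = 0 :=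
    fun m => hu.eq_zero _ (hηs m) ((cut_compact m).mul_right)
  simp only [h0] at hlim
  exact (tendsto_nhds_unique tendsto_const_nhds hlim).symm

end Vale.Agent.P218.CY
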