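import Vale.Agent.P218.CY.Defs

/-! The square integrable Jacobi fields of the round cylinder. -/

open MeasureTheory Set Filter Topology
open scoped ENNReal NNReal ContDiff

namespace Vale.Agent.P218.CY

open Vale.Agent.P218.H63 Vale.Agent.P218.H588 MvPolynomial

namespace S787

/-- the polynomial function -/
noncomputable def ev (p : MvPolynomial (Fin 3) ℝ) (x : E3) : ℝ := eval (fun i => x i) p

/-- the rotation derivative -/
noncomputable def Rt (p : MvPolynomial (Fin 3) ℝ) : MvPolynomial (Fin 3) ℝ :=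
  X 0 * pderiv 1 p - X 1 * pderiv 0 p

/-- the planar Euler operator -/
noncomputable def Eu (p : MvPolynomial (Fin 3) ℝ) : MvPolynomial (Fin 3) ℝ :=
  X 0 * pderiv 0 p + X 1 * pderiv 1 p

/-- the stability operator on polynomials -/
noncomputable def Lo (p : MvPolynomial (Fin 3) ℝ) : MvPolynomial (Fin 3) ℝ :=
  pderiv 2 (pderiv 2 p) + C (1 / 2) * Rt (Rt p) - C (1 / 2) * (X 2 * pderiv 2 p) + p

lemma hasFDerivAt_ev (p : MvPolynomial (Fin 3) ℝ) (x : E3) :
    HasFDerivAt (ev p) (∑ i : Fin 3, ev (pderiv i p) x •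
      (EuclideanSpace.proj i : E3 →L[ℝ] ℝ)) x := by
  induction p using MvPolynomial.induction_on with
  | C a =>
    have : ev (C a) = fun _ => a := by
      funext y
      simp [ev]
    rw [this]
    simp only [pderiv_C]
    have h0 : (∑ i : Fin 3, ev (0 : MvPolynomial (Fin 3) ℝ) x •
        (EuclideanSpace.proj i : E3 →L[ℝ] ℝ)) = 0 := by
      simp [ev]
    rw [h0]
    exact hasFDerivAt_const a x
  | add p q hp hq =>
    have : ev (p + q) = fun y => ev p y + ev q y := by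
      funext y
      simp [ev]
    rw [this]
    have h := hp.add hq
    rw [← Finset.sum_add_distrib] at h
    refine h.congr_fderiv ?_
    refine Finset.sum_congr rfl fun i _ => ?_
    rw [← add_smul]
    congr 1
    simp [ev]
  | mul_X p j hp =>
    have : ev (p * X j) = fun y => ev p y * y j := by
      funext y
      simp [ev]
    rw [this]
    have hj : HasFDerivAt (fun y : E3 => y j) (EuclideanSpace.proj j : E3 →L[ℝ] ℝ) x :=
      (EuclideanSpace.proj j : E3 →L[ℝ] ℝ).hasFDerivAt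
    have h := hp.mul hj
    refine h.congr_fderiv ?_
    ext y
    simp only [Fin.sum_univ_three, ev, pderiv_mul, map_add, map_mul, eval_X, pderiv_X]
    fin_cases j <;> simp <;> ring

lemma pd_ev (i : Fin 3) (p : MvPolynomial (Fin 3) ℝ) : pd i (ev p) = ev (pderiv i p) := by
  funext x
  rw [pd, (hasFDerivAt_ev p x).fderiv]
  simp only [ee, Fin.sum_univ_three]
  fin_cases i <;> simp

lemma rot_ev (p : MvPolynomial (Fin 3) ℝ) : rot (ev p) = ev (Rt p) := by
  funext x
  rw [rot, pd_ev, pd_ev]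
  simp [ev, Rt]

lemma contDiff_ev (p : MvPolynomial (Fin 3) ℝ) : ContDiff ℝ ∞ (ev p) := by
  induction p using MvPolynomial.induction_on with
  | C a =>
    have : ev (C a) = fun _ => a := by
      funext y
      simp [ev]
    rw [this]
    exact contDiff_const
  | add p q hp hq =>
    have : ev (p + q) = fun y => ev p y + ev q y := by
      funext y
      simp [ev]
    rw [this]
    exact hp.add hq
  | mul_X p j hp =>
    have : ev (p * X j) = fun y => ev p y * y j := by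
      funext y
      simp [ev]
    rw [this]
    exact hp.mul (EuclideanSpace.proj j : E3 →L[ℝ] ℝ).contDiff

lemma growth_ev (p : MvPolynomial (Fin 3) ℝ) :
    ∃ (C : ℝ) (d : ℕ), 0 ≤ C ∧ ∀ x, |ev p x| ≤ C * (1 + ‖x‖) ^ d := by
  induction p using MvPolynomial.induction_on with
  | C a => exact ⟨|a|, 0, abs_nonneg a, fun x => by simp [ev]⟩
  | add p q hp hq =>
    obtain ⟨A, d, hA, h1⟩ := hp
    obtain ⟨B, e, hB, h2⟩ := hq
    refine ⟨A + B, d + e, by positivity, fun x => ?_⟩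
    have hx : (1 : ℝ) ≤ 1 + ‖x‖ := by linarith [norm_nonneg x]
    have e1 : (1 + ‖x‖) ^ d ≤ (1 + ‖x‖) ^ (d + e) := pow_le_pow_right₀ hx (by omega)
    have e2 : (1 + ‖x‖) ^ e ≤ (1 + ‖x‖) ^ (d + e) := pow_le_pow_right₀ hx (by omega)
    have e3 : ev (p + q) x = ev p x + ev q x := by simp [ev]
    rw [e3]
    calc |ev p x + ev q x| ≤ |ev p x| + |ev q x| := abs_add_le _ _
      _ ≤ A * (1 + ‖x‖) ^ d + B * (1 + ‖x‖) ^ e := add_le_add (h1 x) (h2 x)
      _ ≤ A * (1 + ‖x‖) ^ (d + e) + B * (1 + ‖x‖) ^ (d + e) := by gcongr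
      _ = (A + B) * (1 + ‖x‖) ^ (d + e) := by ring
  | mul_X p j hp =>
    obtain ⟨A, d, hA, h1⟩ := hp
    refine ⟨A, d + 1, hA, fun x => ?_⟩
    have e3 : ev (p * X j) x = ev p x * x j := by simp [ev]
    have hj : |x j| ≤ 1 + ‖x‖ := by
      have := EuclideanSpace.norm_eq x
      have h2 : ‖x j‖ ≤ ‖x‖ := PiLp.norm_apply_le x j
      rw [Real.norm_eq_abs] at h2
      linarith
    rw [e3, abs_mul, pow_succ, ← mul_assoc]
    exact mul_le_mul (h1 x) hj (abs_nonneg _) (by positivity)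

lemma pg1_ev (p : MvPolynomial (Fin 3) ℝ) : PG1 (ev p) := by
  refine ⟨(contDiff_ev p).of_le (by exact_mod_cast le_top), ?_⟩
  obtain ⟨A, d, hA, h1⟩ := growth_ev p
  obtain ⟨A0, d0, hA0, h10⟩ := growth_ev (pderiv 0 p)
  obtain ⟨A1, d1, hA1, h11⟩ := growth_ev (pderiv 1 p)
  obtain ⟨A2, d2, hA2, h12⟩ := growth_ev (pderiv 2 p)
  refine ⟨A + A0 + A1 + A2, d + d0 + d1 + d2, fun x => ?_⟩
  have hx : (1 : ℝ) ≤ 1 + ‖x‖ := by linarith [norm_nonneg x]
  have hm : ∀ k, k ≤ d + d0 + d1 + d2 → (1 + ‖x‖) ^ k ≤ (1 + ‖x‖) ^ (d + d0 + d1 + d2) :=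
    fun k hk => pow_le_pow_right₀ hx hk
  have hP : 0 ≤ (1 + ‖x‖) ^ (d + d0 + d1 + d2) := by positivity
  constructor
  · calc |ev p x| ≤ A * (1 + ‖x‖) ^ d := h1 x
      _ ≤ A * (1 + ‖x‖) ^ (d + d0 + d1 + d2) := by
        exact mul_le_mul_of_nonneg_left (hm d (by omega)) hA
      _ ≤ (A + A0 + A1 + A2) * (1 + ‖x‖) ^ (d + d0 + d1 + d2) := by
        gcongr
        linarith
  · rw [(hasFDerivAt_ev p x).fderiv]
    have hb : ∀ i : Fin 3, ‖(EuclideanSpace.proj i : E3 →L[ℝ] ℝ)‖ ≤ 1 := by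
      intro i
      refine ContinuousLinearMap.opNorm_le_bound _ zero_le_one fun y => ?_
      rw [one_mul]
      exact PiLp.norm_apply_le y i
    have hs : ∀ i : Fin 3, ‖ev (pderiv i p) x • (EuclideanSpace.proj i : E3 →L[ℝ] ℝ)‖
        ≤ |ev (pderiv i p) x| := by
      intro i
      rw [norm_smul, Real.norm_eq_abs]
      exact mul_le_of_le_one_right (abs_nonneg _) (hb i)
    refine (norm_sum_le _ _).trans ?_
    rw [Fin.sum_univ_three]
    have e0 := (hs 0).trans ((h10 x).trans (mul_le_mul_of_nonneg_left (hm d0 (by omega)) hA0))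
    have e1 := (hs 1).trans ((h11 x).trans (mul_le_mul_of_nonneg_left (hm d1 (by omega)) hA1))
    have e2 := (hs 2).trans ((h12 x).trans (mul_le_mul_of_nonneg_left (hm d2 (by omega)) hA2))
    nlinarith [mul_nonneg hA hP]

/-- the Gaussian area sits on the cylinder -/
lemma ae_mem : ∀ᵐ x ∂(gaussArea 2 cyl), x ∈ cyl := by
  have hc : MeasurableSet cyl := by
    refine IsClosed.measurableSet ?_
    exact isClosed_eq (by fun_prop) continuous_const
  exact (withDensity_absolutelyContinuous _ _).ae_le (ae_restrict_mem hc)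

lemma memLp_ev (hM : RowM) (p : MvPolynomial (Fin 3) ℝ) : MemLp (ev p) 2 (gaussArea 2 cyl) := by
  obtain ⟨A, d, hA, h1⟩ := growth_ev p
  have hc : Continuous (ev p) := (contDiff_ev p).continuous
  rw [memLp_two_iff_integrable_sq hc.aestronglyMeasurable]
  refine Integrable.mono' ((hM.1 (2 * d)).const_mul (A ^ 2)) (hc.pow 2).aestronglyMeasurable
    (Eventually.of_forall fun x => ?_)
  rw [Real.norm_eq_abs, abs_pow]
  calc |ev p x| ^ 2 ≤ (A * (1 + ‖x‖) ^ d) ^ 2 := by
        gcongr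
        exact h1 x
    _ = A ^ 2 * (1 + ‖x‖) ^ (2 * d) := by ring

/-- moments -/
noncomputable def J (u : E3 → ℝ) (p : MvPolynomial (Fin 3) ℝ) : ℝ :=
  ∫ x, u x * ev p x ∂(gaussArea 2 cyl)

section
variable {u : E3 → ℝ}

lemma int_J (hM : RowM) (hu : MemLp u 2 (gaussArea 2 cyl)) (p : MvPolynomial (Fin 3) ℝ) :
    Integrable (fun x => u x * ev p x) (gaussArea 2 cyl) := hu.integrable_mul (memLp_ev hM p)

lemma J_add (hM : RowM) (hu : MemLp u 2 (gaussArea 2 cyl)) (p q : MvPolynomial (Fin 3) ℝ) :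
    J u (p + q) = J u p + J u q := by
  rw [J, J, J, ← integral_add (int_J hM hu p) (int_J hM hu q)]
  refine integral_congr_ae (Eventually.of_forall fun x => ?_)
  simp only [ev, map_add]
  ring

lemma J_sub (hM : RowM) (hu : MemLp u 2 (gaussArea 2 cyl)) (p q : MvPolynomial (Fin 3) ℝ) :
    J u (p - q) = J u p - J u q := by
  rw [J, J, J, ← integral_sub (int_J hM hu p) (int_J hM hu q)]
  refine integral_congr_ae (Eventually.of_forall fun x => ?_)
  simp only [ev, map_sub]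
  ring

lemma J_C_mul (u : E3 → ℝ) (c : ℝ) (p : MvPolynomial (Fin 3) ℝ) : J u (C c * p) = c * J u p := by
  rw [J, J, ← integral_const_mul]
  refine integral_congr_ae (Eventually.of_forall fun x => ?_)
  simp only [ev, map_mul, eval_C]
  ring

lemma J_zero (u : E3 → ℝ) : J u 0 = 0 := by
  simp [J, ev]

lemma J_cyl (u : E3 → ℝ) (p : MvPolynomial (Fin 3) ℝ) :
    J u ((X 0 ^ 2 + X 1 ^ 2) * p) = 2 * J u p := by
  rw [J, J, ← integral_const_mul]
  refine integral_congr_ae ?_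
  filter_upwards [ae_mem] with x hx
  have h : x 0 ^ 2 + x 1 ^ 2 = 2 := hx
  simp only [ev, map_mul, map_add, map_pow, eval_X]
  rw [h]
  ring

end

lemma comm01 (p : MvPolynomial (Fin 3) ℝ) : pderiv 0 (pderiv 1 p) = pderiv 1 (pderiv 0 p) := by
  have h : ⁅(pderiv 0 : Derivation ℝ (MvPolynomial (Fin 3) ℝ) (MvPolynomial (Fin 3) ℝ)),
      (pderiv 1 : Derivation ℝ (MvPolynomial (Fin 3) ℝ) (MvPolynomial (Fin 3) ℝ))⁆ = 0 := by
    refine derivation_ext fun i => ?_
    fin_cases i <;> simp [Derivation.commutator_apply, pderiv_X]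
  have h2 := congrArg (fun d => d p) h
  simp only [Derivation.commutator_apply, Derivation.zero_apply] at h2
  exact sub_eq_zero.mp h2

lemma rt_rt (p : MvPolynomial (Fin 3) ℝ) :
    Rt (Rt p) = (X 0 ^ 2 + X 1 ^ 2) * (pderiv 0 (pderiv 0 p) + pderiv 1 (pderiv 1 p))
      - Eu (Eu p) := by
  have h1 : pderiv (0 : Fin 3) (X 1 : MvPolynomial (Fin 3) ℝ) = 0 := pderiv_X_of_ne (by decide)
  have h2 : pderiv (1 : Fin 3) (X 0 : MvPolynomial (Fin 3) ℝ) = 0 := pderiv_X_of_ne (by decide)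
  simp only [Rt, Eu, map_sub, map_add, pderiv_mul, pderiv_X_self, h1, h2, comm01]
  ring

lemma eu_monomial (s : Fin 3 →₀ ℕ) (r : ℝ) :
    Eu (monomial s r) = C ((s 0 : ℝ) + s 1) * monomial s r := by
  rw [Eu, X_mul_pderiv_monomial, X_mul_pderiv_monomial]
  simp only [nsmul_eq_mul, map_add, map_natCast]
  ring

lemma lo_monomial (s : Fin 3 →₀ ℕ) (r : ℝ) :
    Lo (monomial s r) = pderiv 2 (pderiv 2 (monomial s r))
      + C (1 / 2) * ((X 0 ^ 2 + X 1 ^ 2) *
        (pderiv 0 (pderiv 0 (monomial s r)) + pderiv 1 (pderiv 1 (monomial s r))))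
      + C (1 - ((s 0 : ℝ) + s 1) ^ 2 / 2 - (s 2 : ℝ) / 2) * monomial s r := by
  have hE : Eu (Eu (monomial s r)) = C (((s 0 : ℝ) + s 1) ^ 2) * monomial s r := by
    rw [eu_monomial, C_mul_monomial, eu_monomial, ← C_mul_monomial, ← mul_assoc, ← C_mul, sq]
  rw [Lo, rt_rt, hE, X_mul_pderiv_monomial]
  simp only [nsmul_eq_mul, map_sub, map_one]
  rw [show (C (((s 0 : ℝ) + s 1) ^ 2 / 2) : MvPolynomial (Fin 3) ℝ)
      = C (1 / 2) * C (((s 0 : ℝ) + s 1) ^ 2) by rw [← C_mul]; congr 1; ring,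
    show (C ((s 2 : ℝ) / 2) : MvPolynomial (Fin 3) ℝ) = C (1 / 2) * (s 2 : MvPolynomial (Fin 3) ℝ) by
      rw [← map_natCast (C : ℝ →+* MvPolynomial (Fin 3) ℝ), ← C_mul]; congr 1; ring]
  ring

lemma monomial_eq3 (s : Fin 3 →₀ ℕ) (r : ℝ) :
    (monomial s r : MvPolynomial (Fin 3) ℝ) = C r * (X 0 ^ s 0 * X 1 ^ s 1 * X 2 ^ s 2) := by
  rw [monomial_eq, Finsupp.prod_fintype _ _ (fun i => by simp), Fin.prod_univ_three]

/-- the triangular induction -/
lemma J_monomial (hM : RowM) {u : E3 → ℝ} (hu : MemLp u 2 (gaussArea 2 cyl))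
    (hL : ∀ p, J u (Lo p) = 0) (h1 : J u (X 2 ^ 2 - C 2) = 0) (h2 : J u (X 2 * X 0) = 0)
    (h3 : J u (X 2 * X 1) = 0) : ∀ (N : ℕ) (s : Fin 3 →₀ ℕ), s 0 + s 1 + s 2 = N →
      ∀ r : ℝ, J u (monomial s r) = 0 := by
  intro N
  induction N using Nat.strong_induction_on with
  | _ N ih =>
    intro s hs r
    have hD : ∀ i : Fin 3, J u (pderiv i (pderiv i (monomial s r))) = 0 := by
      intro i
      by_cases h0 : s i = 0
      · rw [pderiv_monomial, h0]
        simp [J_zero]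
      · rw [pderiv_monomial, pderiv_monomial]
        refine ih _ ?_ _ rfl _
        rw [← hs]
        simp only [Finsupp.coe_tsub, Pi.sub_apply, Finsupp.single_apply]
        fin_cases i <;> simp at h0 ⊢ <;> omega
    have hl := hL (monomial s r)
    rw [lo_monomial, J_add hM hu, J_add hM hu, hD 2, J_C_mul, J_cyl, J_add hM hu, hD 0, hD 1,
      J_C_mul] at hl
    simp only [add_zero, mul_zero, zero_add] at hl
    rcases mul_eq_zero.mp hl with hc | hc
    · have hk : ((s 0 : ℝ) + s 1) ^ 2 + s 2 = 2 := by linarith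
      have hk' : (s 0 + s 1) ^ 2 + s 2 = 2 := by exact_mod_cast hk
      have hle : s 0 + s 1 ≤ 1 := by nlinarith
      have hC1 : J u (monomial s r) = r * J u (X 0 ^ s 0 * X 1 ^ s 1 * X 2 ^ s 2) := by
        rw [monomial_eq3, J_C_mul]
      rw [hC1]
      have hcase : (s 0 = 0 ∧ s 1 = 0 ∧ s 2 = 2) ∨ (s 0 = 1 ∧ s 1 = 0 ∧ s 2 = 1) ∨
          (s 0 = 0 ∧ s 1 = 1 ∧ s 2 = 1) := by
        rcases Nat.le_one_iff_eq_zero_or_eq_one.mp hle with h | h
        · rw [h] at hk'
          exact Or.inl ⟨by omega, by omega, by omega⟩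
        · rw [h] at hk'
          rcases (by omega : s 0 = 1 ∧ s 1 = 0 ∨ s 0 = 0 ∧ s 1 = 1) with h' | h'
          · exact Or.inr (Or.inl ⟨h'.1, h'.2, by omega⟩)
          · exact Or.inr (Or.inr ⟨h'.1, h'.2, by omega⟩)
      rcases hcase with ⟨a, b, c⟩ | ⟨a, b, c⟩ | ⟨a, b, c⟩
      · rw [a, b, c]
        have hone : J u (C 2) = 0 := by
          have := ih 0 (by omega) (0 : Fin 3 →₀ ℕ) (by simp) 2
          simpa using this
        have e : (X 0 ^ 0 * X 1 ^ 0 * X 2 ^ 2 : MvPolynomial (Fin 3) ℝ)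
            = (X 2 ^ 2 - C 2) + C 2 := by ring
        rw [e, J_add hM hu, h1, hone]
        ring
      · rw [a, b, c]
        have e : (X 0 ^ 1 * X 1 ^ 0 * X 2 ^ 1 : MvPolynomial (Fin 3) ℝ) = X 2 * X 0 := by ring
        rw [e, h2, mul_zero]
      · rw [a, b, c]
        have e : (X 0 ^ 0 * X 1 ^ 1 * X 2 ^ 1 : MvPolynomial (Fin 3) ℝ) = X 2 * X 1 := by ring
        rw [e, h3, mul_zero]
    · exact hc

lemma J_all (hM : RowM) {u : E3 → ℝ} (hu : MemLp u 2 (gaussArea 2 cyl))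
    (hL : ∀ p, J u (Lo p) = 0) (h1 : J u (X 2 ^ 2 - C 2) = 0) (h2 : J u (X 2 * X 0) = 0)
    (h3 : J u (X 2 * X 1) = 0) (p : MvPolynomial (Fin 3) ℝ) : J u p = 0 := by
  induction p using MvPolynomial.induction_on' with
  | monomial s r => exact J_monomial hM hu hL h1 h2 h3 _ s rfl r
  | add p q hp hq => rw [J_add hM hu, hp, hq, add_zero]

/-- integrals of polynomials -/
noncomputable def K (p : MvPolynomial (Fin 3) ℝ) : ℝ := ∫ x, ev p x ∂(gaussArea 2 cyl)

lemma isFinite_gaussArea (hM : RowM) : IsFiniteMeasure (gaussArea 2 cyl) := by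
  have h := hM.1 0
  simp only [pow_zero] at h
  rcases integrable_const_iff.mp h with h1 | h1
  · exact absurd h1 one_ne_zero
  · exact h1

lemma int_K (hM : RowM) (p : MvPolynomial (Fin 3) ℝ) :
    Integrable (ev p) (gaussArea 2 cyl) := by
  have := isFinite_gaussArea hM
  exact (memLp_ev hM p).integrable (by norm_num)

lemma K_add (hM : RowM) (p q : MvPolynomial (Fin 3) ℝ) : K (p + q) = K p + K q := by
  rw [K, K, K, ← integral_add (int_K hM p) (int_K hM q)]
  refine integral_congr_ae (Eventually.of_forall fun x => ?_)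
  simp only [ev, map_add]

lemma K_C_mul (c : ℝ) (p : MvPolynomial (Fin 3) ℝ) : K (C c * p) = c * K p := by
  rw [K, K, ← integral_const_mul]
  refine integral_congr_ae (Eventually.of_forall fun x => ?_)
  simp only [ev, map_mul, eval_C]

lemma K_D2 (hP : RowP) (p : MvPolynomial (Fin 3) ℝ) :
    K (pderiv 2 p - C (1 / 2) * (X 2 * p)) = 0 := by
  have h := (hP (ev p) (pg1_ev p)).1
  rw [K, ← h]
  refine integral_congr_ae (Eventually.of_forall fun x => ?_)
  simp only [pd_ev]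
  simp only [ev, map_sub, map_mul, eval_C, eval_X]
  ring

lemma K_Rt (hP : RowP) (p : MvPolynomial (Fin 3) ℝ) : K (Rt p) = 0 := by
  have h := (hP (ev p) (pg1_ev p)).2
  rw [rot_ev] at h
  exact h

lemma J_ev (g p : MvPolynomial (Fin 3) ℝ) : J (ev g) p = K (g * p) := by
  rw [J, K]
  refine integral_congr_ae (Eventually.of_forall fun x => ?_)
  simp only [ev, map_mul]

lemma J_ev_Lo (hP : RowP) (hM : RowM) (g p : MvPolynomial (Fin 3) ℝ) (hg : Lo g = 0) :
    J (ev g) (Lo p) = 0 := by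
  have e : g * Lo p = (pderiv 2 (g * pderiv 2 p - p * pderiv 2 g)
      - C (1 / 2) * (X 2 * (g * pderiv 2 p - p * pderiv 2 g)))
      + C (1 / 2) * Rt (g * Rt p - p * Rt g) := by
    have h0 : g * Lo p = g * Lo p - p * Lo g := by rw [hg, mul_zero, sub_zero]
    rw [h0]
    simp only [Lo, Rt, map_sub, pderiv_mul]
    ring
  rw [J_ev, e, K_add hM, K_D2 hP, K_C_mul, K_Rt hP]
  ring

/-- the first field -/
noncomputable def g1 : MvPolynomial (Fin 3) ℝ := X 2 ^ 2 - C 2
/-- the second field -/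
noncomputable def g2 : MvPolynomial (Fin 3) ℝ := X 2 * X 0
/-- the third field -/
noncomputable def g3 : MvPolynomial (Fin 3) ℝ := X 2 * X 1

/- derivatives of the variables -/
lemma x01 : pderiv (0 : Fin 3) (X 1 : MvPolynomial (Fin 3) ℝ) = 0 := pderiv_X_of_ne (by decide)
lemma x02 : pderiv (0 : Fin 3) (X 2 : MvPolynomial (Fin 3) ℝ) = 0 := pderiv_X_of_ne (by decide)
lemma x10 : pderiv (1 : Fin 3) (X 0 : MvPolynomial (Fin 3) ℝ) = 0 := pderiv_X_of_ne (by decide)
lemma x12 : pderiv (1 : Fin 3) (X 2 : MvPolynomial (Fin 3) ℝ) = 0 := pderiv_X_of_ne (by decide)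
lemma x20 : pderiv (2 : Fin 3) (X 0 : MvPolynomial (Fin 3) ℝ) = 0 := pderiv_X_of_ne (by decide)
lemma x21 : pderiv (2 : Fin 3) (X 1 : MvPolynomial (Fin 3) ℝ) = 0 := pderiv_X_of_ne (by decide)

lemma hC2 : (C 2 : MvPolynomial (Fin 3) ℝ) = 2 := map_ofNat C 2

lemma half2 : (C (1 / 2) : MvPolynomial (Fin 3) ℝ) * 2 = 1 := by
  rw [← hC2, ← C_mul]
  norm_num

lemma lo_g1 : Lo g1 = 0 := by
  simp only [Lo, Rt, g1, sq, pderiv_mul, map_sub, map_add, pderiv_X_self, x01, x02, x10, x12, x20,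
    x21, pderiv_C, map_zero, pderiv_one, mul_zero, zero_mul, add_zero, zero_add, sub_zero,
    zero_sub, mul_one, one_mul]
  linear_combination (-(X 2 * X 2 : MvPolynomial (Fin 3) ℝ)) * half2 - hC2

lemma lo_g2 : Lo g2 = 0 := by
  simp only [Lo, Rt, g2, pderiv_mul, pderiv_X_self, x02, x10, x12, x20, x01, map_zero, mul_zero,
    zero_mul, add_zero, zero_add, zero_sub, mul_one, one_mul, map_neg]
  linear_combination (-(X 2 * X 0 : MvPolynomial (Fin 3) ℝ)) * half2

lemma lo_g3 : Lo g3 = 0 := by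
  simp only [Lo, Rt, g3, pderiv_mul, pderiv_X_self, x02, x10, x12, x21, x01, map_zero, mul_zero,
    zero_mul, add_zero, zero_add, sub_zero, mul_one, one_mul]
  linear_combination (-(X 2 * X 1 : MvPolynomial (Fin 3) ℝ)) * half2

lemma J_comm (g p : MvPolynomial (Fin 3) ℝ) : J (ev g) p = J (ev p) g := by
  rw [J_ev, J_ev, mul_comm]

lemma c12 (hP : RowP) : J (ev g1) g2 = 0 := by
  rw [J_ev, ← K_Rt hP (g1 * g3)]
  congr 1
  simp only [Rt, g1, g2, g3, sq, pderiv_mul, map_sub, pderiv_X_self, x01, x02, x10, x12, pderiv_C]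
  ring

lemma c13 (hP : RowP) : J (ev g1) g3 = 0 := by
  have h : K (C (-1) * Rt (g1 * g2)) = 0 := by rw [K_C_mul, K_Rt hP, mul_zero]
  rw [J_ev, ← h]
  congr 1
  simp only [Rt, g1, g2, g3, sq, pderiv_mul, map_sub, pderiv_X_self, x01, x02, x10, x12, pderiv_C,
    map_neg, map_one]
  ring

lemma c23 (hP : RowP) : J (ev g2) g3 = 0 := by
  have h : K (C (-1 / 2) * Rt (g2 * g2)) = 0 := by rw [K_C_mul, K_Rt hP, mul_zero]
  have h2 : (C (-1 / 2) : MvPolynomial (Fin 3) ℝ) * 2 = -1 := by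
    rw [← hC2, ← C_mul]
    norm_num
  rw [J_ev, ← h]
  congr 1
  simp only [Rt, g2, g3, pderiv_mul, pderiv_X_self, x01, x02, x10, x12]
  linear_combination (X 2 * X 0 * (X 2 * X 1) : MvPolynomial (Fin 3) ℝ) * h2

lemma exists_coef (hM : RowM) (u : E3 → ℝ) (g : MvPolynomial (Fin 3) ℝ) :
    ∃ a : ℝ, J u g = a * J (ev g) g := by
  by_cases h : J (ev g) g = 0
  · refine ⟨0, ?_⟩
    rw [zero_mul]
    have h0 : ev g =ᵐ[gaussArea 2 cyl] 0 := by
      have h1 := (integral_eq_zero_iff_of_nonneg (fun x => mul_self_nonneg (ev g x))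
        (int_J hM (memLp_ev hM g) g)).mp h
      filter_upwards [h1] with x hx
      exact mul_self_eq_zero.mp hx
    rw [J, ← integral_zero E3 ℝ (μ := gaussArea 2 cyl)]
    refine integral_congr_ae ?_
    filter_upwards [h0] with x hx
    rw [hx]
    simp
  · exact ⟨J u g / J (ev g) g, by field_simp⟩

lemma J_sub3 (hM : RowM) {u : E3 → ℝ} (hu : MemLp u 2 (gaussArea 2 cyl)) (a b c : ℝ)
    (p : MvPolynomial (Fin 3) ℝ) :
    J (fun x => u x - (a * ev g1 x + b * ev g2 x + c * ev g3 x)) p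
      = J u p - (a * J (ev g1) p + b * J (ev g2) p + c * J (ev g3) p) := by
  have i1 := (int_J hM (memLp_ev hM g1) p).const_mul a
  have i2 := (int_J hM (memLp_ev hM g2) p).const_mul b
  have i3 := (int_J hM (memLp_ev hM g3) p).const_mul c
  have i12 : Integrable (fun x => a * (ev g1 x * ev p x) + b * (ev g2 x * ev p x))
      (gaussArea 2 cyl) := i1.add i2
  have i123 : Integrable (fun x => a * (ev g1 x * ev p x) + b * (ev g2 x * ev p x)
      + c * (ev g3 x * ev p x)) (gaussArea 2 cyl) := i12.add i3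
  simp only [J]
  rw [← integral_const_mul, ← integral_const_mul, ← integral_const_mul,
    ← integral_add i1 i2, ← integral_add i12 i3, ← integral_sub (int_J hM hu p) i123]
  refine integral_congr_ae (Eventually.of_forall fun x => ?_)
  simp only
  ring

end S787

open S787 in
/-- (R5c) -/
theorem rowS (hD : RowD) (hQ : RowQ) (hL : RowL) (hP : RowP) (hM : RowM) : RowS := by
  intro u hu
  have hu2 := hu.sq_int
  have hLu : ∀ p, J u (Lo p) = 0 := by
    intro p
    have h := hQ u hu p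
    rw [J, ← h]
    refine integral_congr_ae ?_
    filter_upwards [ae_mem] with x hx
    have e : stab cw (fun x : E3 => MvPolynomial.eval (fun i => x i) p) x
        = pd 2 (pd 2 (ev p)) x + 1 / 2 * rot (rot (ev p)) x - x 2 / 2 * pd 2 (ev p) x + ev p x :=
      hL (ev p) (by exact_mod_cast contDiff_infty.mp (contDiff_ev p) 2) x hx
    rw [e, pd_ev, pd_ev, rot_ev, rot_ev]
    simp only [ev, Lo, map_add, map_sub, map_mul, eval_C, eval_X]
    ring
  obtain ⟨a, ha⟩ := exists_coef hM u g1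
  obtain ⟨b, hb⟩ := exists_coef hM u g2
  obtain ⟨c, hc⟩ := exists_coef hM u g3
  have hu' : MemLp (fun x => u x - (a * ev g1 x + b * ev g2 x + c * ev g3 x)) 2
      (gaussArea 2 cyl) :=
    hu2.sub ((((memLp_ev hM g1).const_mul a).add ((memLp_ev hM g2).const_mul b)).add
      ((memLp_ev hM g3).const_mul c))
  have h1 : J (fun x => u x - (a * ev g1 x + b * ev g2 x + c * ev g3 x)) g1 = 0 := by
    rw [J_sub3 hM hu2, J_comm g2 g1, J_comm g3 g1, c12 hP, c13 hP, ha]
    ring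
  have h2 : J (fun x => u x - (a * ev g1 x + b * ev g2 x + c * ev g3 x)) g2 = 0 := by
    rw [J_sub3 hM hu2, J_comm g3 g2, c12 hP, c23 hP, hb]
    ring
  have h3 : J (fun x => u x - (a * ev g1 x + b * ev g2 x + c * ev g3 x)) g3 = 0 := by
    rw [J_sub3 hM hu2, c13 hP, c23 hP, hc]
    ring
  have hL' : ∀ p, J (fun x => u x - (a * ev g1 x + b * ev g2 x + c * ev g3 x)) (Lo p) = 0 := by
    intro p
    rw [J_sub3 hM hu2, hLu, J_ev_Lo hP hM g1 p lo_g1, J_ev_Lo hP hM g2 p lo_g2,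
      J_ev_Lo hP hM g3 p lo_g3]
    ring
  have hz := hD _ hu' (fun p => J_all hM hu' hL' h1 h2 h3 p)
  refine ⟨a, b, c, ?_⟩
  filter_upwards [hz] with x hx
  simp only [Pi.zero_apply] at hx
  have e1 : ev g1 x = x 2 ^ 2 - 2 := by simp [ev, g1]
  have e2 : ev g2 x = x 2 * x 0 := by simp [ev, g2]
  have e3 : ev g3 x = x 2 * x 1 := by simp [ev, g3]
  rw [e1, e2, e3] at hx
  linarith

end Vale.Agent.P218.CY
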