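import Vale.Agent.P218.CY.Top
import Vale.Agent.P218.CY.I
import Vale.Agent.P218.CY.M
import Vale.Agent.P218.CY.E
import Vale.Agent.P218.CY.C
import Vale.Agent.P218.CY.D
import Vale.Agent.P218.CY.Q
import Vale.Agent.P218.CY.S
import Vale.Agent.P218.CY.H237.B
import Vale.Agent.P218.CY.H266.P
import Vale.Agent.P218.CY.H571.L
import Vale.Agent.P218.CY.H624.T

/-! The round cylinder satisfies all the hypotheses of the second-order theorem. -/

open MeasureTheory Set Filter Topology
open scoped ENNReal NNReal ContDiff

namespace Vale.Agent.P218.CY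

theorem rP : RowP := H266.rowP rowI rowM
theorem rL : RowL := H571.rowL H624.rowG
theorem rB : RowB := H237.rowB H624.rowW H624.rowG rL rP rowM
theorem rC : RowC := rowC H624.rowG rP rowM
theorem rQ : RowQ := rowQ H624.rowW H624.rowG rowM
theorem rS : RowS := rowS (rowD rowE) rQ rL rP rowM

/-- the round cylinder `S¹(√2) × ℝ` satisfies all the hypotheses -/
theorem cylinder : RowTOP := rowTOP H624.rowG H624.rowT rS rC rB

end Vale.Agent.P218.CY
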