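import Vale.Agent.P218.H588.Model

/-! The round cylinder `S¹(√2) × ℝ` in `ℝ³`: definitions and rows. -/

open MeasureTheory Set Filter Topology
open scoped ENNReal NNReal ContDiff

namespace Vale.Agent.P218.CY

open Vale.Agent.P218.H63 Vale.Agent.P218.H588

/-- Euclidean space -/
abbrev E3 := EuclideanSpace ℝ (Fin 3)

/-- the standard basis -/
noncomputable def ee (i : Fin 3) : E3 := EuclideanSpace.single i (1 : ℝ)

/-- the round cylinder of radius `√2` about the third axis -/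
def cyl : Set E3 := {x | x 0 ^ 2 + x 1 ^ 2 = 2}

/-- the square of the distance to the axis -/
def r2 (x : E3) : ℝ := x 0 ^ 2 + x 1 ^ 2

/-- smooth on `ℝ`, equal to `√s - √2` for `s ≥ 1/2` and at most `-1/2` for `s ≤ 1/2` -/
noncomputable def phi (s : ℝ) : ℝ :=
  Real.smoothTransition (4 * s - 1) * (√s - √2) - (1 - Real.smoothTransition (4 * s - 1))

/-- the signed distance to the cylinder, cut off near the axis -/
noncomputable def cw (x : E3) : ℝ := phi (r2 x)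

/-- the projection to the plane `x 2 = 0` -/
noncomputable def pr (x : E3) : E3 := x - x 2 • ee 2

/-- partial derivatives -/
noncomputable def pd (i : Fin 3) (f : E3 → ℝ) (x : E3) : ℝ := fderiv ℝ f x (ee i)

/-- the rotation field -/
noncomputable def rot (f : E3 → ℝ) (x : E3) : ℝ := x 0 * pd 1 f x - x 1 * pd 0 f x

/-- the Jacobi field -/
def cv (c : ℝ) (x : E3) : ℝ := c * (x 2 ^ 2 - 2)

/-- `f` and its derivative grow polynomially -/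
def PG1 (f : E3 → ℝ) : Prop := ContDiff ℝ 1 f ∧
  ∃ (C : ℝ) (p : ℕ), ∀ x, |f x| ≤ C * (1 + ‖x‖) ^ p ∧ ‖fderiv ℝ f x‖ ≤ C * (1 + ‖x‖) ^ p

/-- (R1a) in the tube `w` is `r - √2` -/
def RowW : Prop := ContDiff ℝ ∞ cw ∧ (∀ x : E3, x ∈ cyl ↔ cw x = 0) ∧
  (∀ x, |cw x| < 1 / 2 → 1 / 2 < r2 x ∧ r2 x < 4) ∧ ∀ x, 1 / 2 < r2 x → cw x = √(r2 x) - √2

/-- (R1b) gradient and Hessian in the tube -/
def RowG : Prop := ∀ x : E3, 1 / 2 < r2 x → gradient cw x = (√(r2 x))⁻¹ • pr x ∧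
  ∀ h : E3, fderiv ℝ (gradient cw) x h
    = (√(r2 x))⁻¹ • pr h - ((√(r2 x))⁻¹ ^ 3 * inner ℝ (pr x) h) • pr x

/-- (R1c) tube and bound of the third derivatives (from `RowW`, `RowG`; the third derivatives do
not depend on `x 2` and are continuous) -/
def RowT : Prop := ∃ C : ℝ, IsTubeShrinker cyl cw (1 / 2) C ∧
  ∀ x, |cw x| < 1 / 2 → ‖fderiv ℝ (fderiv ℝ (gradient cw)) x‖ ≤ C

/-- (R2a) invariance of the area -/
def RowI : Prop := ∀ g : E3 ≃ᵢ E3, (∀ x, g x ∈ cyl ↔ x ∈ cyl) →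
  ((μH[2] : Measure E3).restrict cyl).map g = (μH[2] : Measure E3).restrict cyl

/-- (R2b) Gaussian moments and mass -/
def RowM : Prop := (∀ p : ℕ, Integrable (fun x : E3 => (1 + ‖x‖) ^ p) (gaussArea 2 cyl)) ∧
  0 < gaussArea 2 cyl univ

/-- (R3) integration by parts (from `RowI`, `RowM`) -/
def RowP : Prop := ∀ f : E3 → ℝ, PG1 f →
  ∫ x, (pd 2 f x - x 2 / 2 * f x) ∂(gaussArea 2 cyl) = 0 ∧ ∫ x, rot f x ∂(gaussArea 2 cyl) = 0

/-- (R4) the stability operator -/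
def RowL : Prop := ∀ f : E3 → ℝ, ContDiff ℝ 2 f → ∀ x ∈ cyl,
  stab cw f x = pd 2 (pd 2 f) x + 1 / 2 * rot (rot f) x - x 2 / 2 * pd 2 f x + f x

/-- (R5a) polynomials are dense: a function orthogonal to all polynomials vanishes; `RowM` -/
def RowD : Prop := ∀ u : E3 → ℝ, MemLp u 2 (gaussArea 2 cyl) →
  (∀ p : MvPolynomial (Fin 3) ℝ, ∫ x, u x * MvPolynomial.eval (fun i => x i) p
    ∂(gaussArea 2 cyl) = 0) → u =ᵐ[gaussArea 2 cyl] 0

/-- (R5b) the test functions may be polynomials -/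
def RowQ : Prop := ∀ u : E3 → ℝ, IsJacobiField 2 cyl cw u → ∀ p : MvPolynomial (Fin 3) ℝ,
  ∫ x, u x * stab cw (fun x => MvPolynomial.eval (fun i => x i) p) x ∂(gaussArea 2 cyl) = 0

/-- (R5c) the `L²` Jacobi fields -/
def RowS : Prop := ∀ u : E3 → ℝ, IsJacobiField 2 cyl cw u → ∃ a b c : ℝ,
  u =ᵐ[gaussArea 2 cyl] fun x => a * (x 2 ^ 2 - 2) + b * (x 2 * x 0) + c * (x 2 * x 1)

/-- (R6) the cubic form -/
def RowC : Prop := ∀ c : ℝ, c ≠ 0 → cubicForm 2 cyl cw (cv c) (cv c) (cv c) ≠ 0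

/-- (R7) growth, normal, normalisation, orthogonality to the rotations -/
def RowB : Prop := ∃ (c C : ℝ) (q : ℕ), c ≠ 0 ∧
  (∀ x, ∀ n ≤ 3, ‖iteratedFDeriv ℝ n (cv c) x‖ ≤ C * (1 + ‖x‖) ^ q) ∧
  ContDiff ℝ 3 (cv c) ∧ (∀ x, |cw x| < 1 / 2 → inner ℝ (gradient (cv c) x) (gradient cw x) = 0) ∧
  (∀ x ∈ cyl, stab cw (cv c) x = 0) ∧ ∫ x, cv c x * cv c x ∂(gaussArea 2 cyl) = 1 ∧
  ∀ A : E3 →L[ℝ] E3, (∀ x, inner ℝ (A x) x = 0) →
    ∫ x, cv c x * inner ℝ (A x) (gradient cw x) ∂(gaussArea 2 cyl) = 0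

/-- the aim -/
def RowTOP : Prop := ∃ (w : E3 → ℝ) (δ C : ℝ) (q : ℕ) (v : Fin 1 → E3 → ℝ),
  IsTubeShrinker cyl w δ C ∧
  (∀ x, |w x| < δ → ‖fderiv ℝ (fderiv ℝ (gradient w)) x‖ ≤ C * (1 + ‖x‖) ^ q) ∧
  IsJacobiBasis 2 cyl w δ C q v ∧ SecondOrderNondegenerate 2 cyl w v

end Vale.Agent.P218.CY
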