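import Vale.Agent.P218.H588.Model

/-! The hypotheses of the second-order theorem on the model, as one predicate. -/

open MeasureTheory Set Filter Topology
open scoped ENNReal NNReal

namespace Vale.Agent.P218.CY

open Vale.Agent.P218.H63 Vale.Agent.P218.H588

variable {E : Type*} [NormedAddCommGroup E] [InnerProductSpace ℝ E] [FiniteDimensional ℝ E]
  [MeasurableSpace E] [BorelSpace E]

/-- `S = {w = 0}` is a self-shrinking hypersurface with a uniform tubular neighbourhood, in which
the third derivatives of the signed distance `w` grow at most polynomially; `v 1, …, v k` is an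
orthonormal basis of the square integrable Jacobi fields of `S` orthogonal to the infinitesimal
rotations, and these Jacobi fields are obstructed to second order. -/
def IsSecondOrderModel (m k : ℕ) (S : Set E) : Prop :=
  ∃ (w : E → ℝ) (δ C : ℝ) (q : ℕ) (v : Fin k → E → ℝ), IsTubeShrinker S w δ C ∧
    (∀ x, |w x| < δ → ‖fderiv ℝ (fderiv ℝ (gradient w)) x‖ ≤ C * (1 + ‖x‖) ^ q) ∧
    IsJacobiBasis m S w δ C q v ∧ SecondOrderNondegenerate m S w v

end Vale.Agent.P218.CY
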