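import Vale.Agent.P218.CY.Defs

/-! Moments of the Gaussian area of the cylinder; the cubic form; the Jacobi field. -/

open MeasureTheory Set Filter Topology
open scoped ENNReal NNReal ContDiff

namespace Vale.Agent.P218.CY

open Vale.Agent.P218.H63 Vale.Agent.P218.H588

/-- coordinates -/
noncomputable abbrev co (i : Fin 3) : E3 →L[ℝ] ℝ := EuclideanSpace.proj i

lemma co_apply (i : Fin 3) (x : E3) : co i x = x i := rfl

lemma ee_ap (i j : Fin 3) : ee j i = if i = j then 1 else 0 := by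
  simp [ee]

lemma abs_co_le (i : Fin 3) (x : E3) : |x i| ≤ 1 + ‖x‖ := by
  have h := PiLp.norm_apply_le x i
  rw [Real.norm_eq_abs] at h
  linarith

lemma hasF (i : Fin 3) (x : E3) : HasFDerivAt (fun y : E3 => y i) (co i) x :=
  (co i).hasFDerivAt

lemma hasF_pow (i : Fin 3) (n : ℕ) (x : E3) :
    HasFDerivAt (fun y : E3 => y i ^ n) ((n * x i ^ (n - 1)) • co i) x := by
  have := (hasF i x).pow n
  simpa using this

/-- the function `x_2^n x_i` -/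
lemma hasF_mul (n : ℕ) (i : Fin 3) (x : E3) :
    HasFDerivAt (fun y : E3 => y 2 ^ n * y i)
      ((x 2 ^ n) • co i + (x i) • ((n * x 2 ^ (n - 1)) • co 2)) x :=
  (hasF_pow 2 n x).mul (hasF i x)

lemma pd_pow (n : ℕ) (x : E3) : pd 2 (fun y => y 2 ^ n) x = n * x 2 ^ (n - 1) := by
  unfold pd
  rw [(hasF_pow 2 n x).fderiv]
  simp [ee_ap]

lemma rot_mul1 (n : ℕ) (x : E3) : rot (fun y => y 2 ^ n * y 1) x = x 2 ^ n * x 0 := by
  unfold rot pd
  rw [(hasF_mul n 1 x).fderiv]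
  simp [ee_ap]
  ring

lemma rot_mul0 (n : ℕ) (x : E3) : rot (fun y => y 2 ^ n * y 0) x = -(x 2 ^ n * x 1) := by
  unfold rot pd
  rw [(hasF_mul n 0 x).fderiv]
  simp [ee_ap]
  ring

lemma norm_co_le (i : Fin 3) : ‖co i‖ ≤ 1 :=
  ContinuousLinearMap.opNorm_le_bound _ zero_le_one fun x => by
    rw [one_mul]; exact PiLp.norm_apply_le x i

lemma pow_bd (i : Fin 3) (n : ℕ) (x : E3) : |x i ^ n| ≤ (1 + ‖x‖) ^ n := by
  rw [abs_pow]
  exact pow_le_pow_left₀ (abs_nonneg _) (abs_co_le i x) n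

lemma pg_pow (n : ℕ) : PG1 fun y : E3 => y 2 ^ n := by
  refine ⟨?_, n + 1, n, fun x => ⟨?_, ?_⟩⟩
  · exact (co 2).contDiff.pow n
  · have h := pow_bd 2 n x
    have h1 : 0 ≤ (1 + ‖x‖) ^ n := by positivity
    have h2 : (0 : ℝ) ≤ n := n.cast_nonneg
    nlinarith
  · rw [(hasF_pow 2 n x).fderiv, norm_smul]
    have h1 : 1 ≤ 1 + ‖x‖ := by have := norm_nonneg x; linarith
    have h3 : ‖(n : ℝ) * x 2 ^ (n - 1)‖ ≤ n * (1 + ‖x‖) ^ n := by
      rw [norm_mul, Real.norm_natCast, Real.norm_eq_abs]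
      refine mul_le_mul_of_nonneg_left ?_ n.cast_nonneg
      exact (pow_bd 2 (n - 1) x).trans (pow_le_pow_right₀ h1 (Nat.sub_le n 1))
    have h4 := norm_co_le 2
    have h5 : 0 ≤ (1 + ‖x‖) ^ n := by positivity
    calc ‖(n : ℝ) * x 2 ^ (n - 1)‖ * ‖co 2‖ ≤ (n * (1 + ‖x‖) ^ n) * 1 := by gcongr
      _ ≤ _ := by nlinarith

lemma pg_mul (n : ℕ) (i : Fin 3) : PG1 fun y : E3 => y 2 ^ n * y i := by
  refine ⟨?_, n + 1, n + 1, fun x => ⟨?_, ?_⟩⟩
  · exact ((co 2).contDiff.pow n).mul (co i).contDiff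
  · have h := pow_bd 2 n x
    have h1 : 0 ≤ (1 + ‖x‖) ^ n := by positivity
    have h2 : (0 : ℝ) ≤ n := n.cast_nonneg
    have h3 := abs_co_le i x
    have h4 : 0 ≤ 1 + ‖x‖ := by positivity
    rw [abs_mul]
    calc |x 2 ^ n| * |x i| ≤ (1 + ‖x‖) ^ n * (1 + ‖x‖) := by gcongr
      _ = (1 + ‖x‖) ^ (n + 1) := by ring
      _ ≤ _ := by
          have : 0 ≤ (1 + ‖x‖) ^ (n + 1) := by positivity
          nlinarith
  · rw [(hasF_mul n i x).fderiv]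
    have h1 : 1 ≤ 1 + ‖x‖ := by have := norm_nonneg x; linarith
    have h4 := norm_co_le 2
    have h4' := norm_co_le i
    have h6 := pow_bd 2 n x
    have h7 := abs_co_le i x
    refine (norm_add_le _ _).trans ?_
    rw [norm_smul, norm_smul, norm_smul, Real.norm_eq_abs, Real.norm_eq_abs, norm_mul,
      Real.norm_natCast, Real.norm_eq_abs]
    have h8 : |x 2 ^ (n - 1)| ≤ (1 + ‖x‖) ^ n :=
      (pow_bd 2 (n - 1) x).trans (pow_le_pow_right₀ h1 (Nat.sub_le n 1))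
    have h9 : (1 + ‖x‖) ^ n ≤ (1 + ‖x‖) ^ (n + 1) := pow_le_pow_right₀ h1 (Nat.le_succ n)
    calc |x 2 ^ n| * ‖co i‖ + |x i| * (n * |x 2 ^ (n - 1)| * ‖co 2‖)
        ≤ (1 + ‖x‖) ^ n * 1 + (1 + ‖x‖) * (n * (1 + ‖x‖) ^ n * 1) := by gcongr
      _ = (1 + ‖x‖) ^ n + n * (1 + ‖x‖) ^ (n + 1) := by ring
      _ ≤ _ := by nlinarith

section

variable (hM : RowM) (hP : RowP)
include hM

lemma int_of_bd {f : E3 → ℝ} (hf : Continuous f) {C : ℝ} {p : ℕ}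
    (hb : ∀ x, |f x| ≤ C * (1 + ‖x‖) ^ p) : Integrable f (gaussArea 2 cyl) :=
  ((hM.1 p).const_mul C).mono' hf.aestronglyMeasurable (Eventually.of_forall fun x => hb x)

lemma int_pow (n : ℕ) : Integrable (fun x : E3 => x 2 ^ n) (gaussArea 2 cyl) :=
  int_of_bd hM ((co 2).continuous.pow n) (C := 1) (p := n) fun x => by
    rw [one_mul]; exact pow_bd 2 n x

/-- the mass -/
lemma mass_pos : 0 < ∫ _x : E3, (1 : ℝ) ∂(gaussArea 2 cyl) := by
  have h1 : Integrable (fun _ : E3 => (1 : ℝ)) (gaussArea 2 cyl) := by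
    simpa using hM.1 0
  have hfin : IsFiniteMeasure (gaussArea 2 cyl) :=
    (integrable_const_iff.1 h1).resolve_left one_ne_zero
  rw [integral_const, smul_eq_mul, mul_one]
  exact ENNReal.toReal_pos hM.2.ne' (measure_ne_top _ _)

include hP

lemma mom2 : ∫ x : E3, x 2 ^ 2 ∂(gaussArea 2 cyl) = 2 * ∫ _x : E3, (1 : ℝ) ∂(gaussArea 2 cyl) := by
  have h := (hP _ (pg_pow 1)).1
  simp only [pd_pow] at h
  have e : ∀ x : E3, ((1 : ℕ) : ℝ) * x 2 ^ (1 - 1) - x 2 / 2 * x 2 ^ 1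
      = 1 - 1 / 2 * x 2 ^ 2 := fun x => by norm_num; ring
  simp_rw [e] at h
  rw [integral_sub (by simpa using int_pow hM 0) ((int_pow hM 2).const_mul _),
    integral_const_mul] at h
  linarith

lemma mom4 : ∫ x : E3, x 2 ^ 4 ∂(gaussArea 2 cyl) = 12 * ∫ _x : E3, (1 : ℝ) ∂(gaussArea 2 cyl) := by
  have h := (hP _ (pg_pow 3)).1
  simp only [pd_pow] at h
  have e : ∀ x : E3, ((3 : ℕ) : ℝ) * x 2 ^ (3 - 1) - x 2 / 2 * x 2 ^ 3
      = 3 * x 2 ^ 2 - 1 / 2 * x 2 ^ 4 := fun x => by norm_num; ring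
  simp_rw [e] at h
  rw [integral_sub ((int_pow hM 2).const_mul _) ((int_pow hM 4).const_mul _),
    integral_const_mul, integral_const_mul, mom2 hM hP] at h
  linarith

lemma mom6 : ∫ x : E3, x 2 ^ 6 ∂(gaussArea 2 cyl) = 120 * ∫ _x : E3, (1 : ℝ) ∂(gaussArea 2 cyl) := by
  have h := (hP _ (pg_pow 5)).1
  simp only [pd_pow] at h
  have e : ∀ x : E3, ((5 : ℕ) : ℝ) * x 2 ^ (5 - 1) - x 2 / 2 * x 2 ^ 5
      = 5 * x 2 ^ 4 - 1 / 2 * x 2 ^ 6 := fun x => by norm_num; ring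
  simp_rw [e] at h
  rw [integral_sub ((int_pow hM 4).const_mul _) ((int_pow hM 6).const_mul _),
    integral_const_mul, integral_const_mul, mom4 hM hP] at h
  linarith

lemma sq_int : ∫ x : E3, (x 2 ^ 2 - 2) ^ 2 ∂(gaussArea 2 cyl)
    = 8 * ∫ _x : E3, (1 : ℝ) ∂(gaussArea 2 cyl) := by
  have i0 : Integrable (fun _ : E3 => (4 : ℝ)) (gaussArea 2 cyl) := by
    simpa using (int_pow hM 0).const_mul 4
  have e : ∀ x : E3, (x 2 ^ 2 - 2) ^ 2 = (x 2 ^ 4 - 4 * x 2 ^ 2) + 4 := fun x => by ring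
  simp_rw [e]
  have e4 : ∫ _x : E3, (4 : ℝ) ∂(gaussArea 2 cyl)
      = 4 * ∫ _x : E3, (1 : ℝ) ∂(gaussArea 2 cyl) := by
    rw [← integral_const_mul]; simp
  have i4 := int_pow hM 4
  have i2 : Integrable (fun x : E3 => 4 * x 2 ^ 2) (gaussArea 2 cyl) := (int_pow hM 2).const_mul 4
  have i42 : Integrable (fun x : E3 => x 2 ^ 4 - 4 * x 2 ^ 2) (gaussArea 2 cyl) := i4.sub i2
  rw [integral_add i42 i0, integral_sub i4 i2, integral_const_mul,
    mom4 hM hP, mom2 hM hP, e4]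
  ring

lemma cub_int : ∫ x : E3, (x 2 ^ 2 - 2) ^ 3 ∂(gaussArea 2 cyl)
    = 64 * ∫ _x : E3, (1 : ℝ) ∂(gaussArea 2 cyl) := by
  have i0 : Integrable (fun _ : E3 => (8 : ℝ)) (gaussArea 2 cyl) := by
    simpa using (int_pow hM 0).const_mul 8
  have e : ∀ x : E3, (x 2 ^ 2 - 2) ^ 3 = (x 2 ^ 6 - 6 * x 2 ^ 4) + (12 * x 2 ^ 2 - 8) :=
    fun x => by ring
  simp_rw [e]
  have e4 : ∫ _x : E3, (8 : ℝ) ∂(gaussArea 2 cyl)
      = 8 * ∫ _x : E3, (1 : ℝ) ∂(gaussArea 2 cyl) := by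
    rw [← integral_const_mul]; simp
  have i6 := int_pow hM 6
  have i4 : Integrable (fun x : E3 => 6 * x 2 ^ 4) (gaussArea 2 cyl) := (int_pow hM 4).const_mul 6
  have i2 : Integrable (fun x : E3 => 12 * x 2 ^ 2) (gaussArea 2 cyl) :=
    (int_pow hM 2).const_mul 12
  have i64 : Integrable (fun x : E3 => x 2 ^ 6 - 6 * x 2 ^ 4) (gaussArea 2 cyl) := i6.sub i4
  have i20 : Integrable (fun x : E3 => 12 * x 2 ^ 2 - 8) (gaussArea 2 cyl) := i2.sub i0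
  rw [integral_add i64 i20, integral_sub i6 i4, integral_sub i2 i0, integral_const_mul,
    integral_const_mul, mom6 hM hP, mom4 hM hP, mom2 hM hP, e4]
  ring

omit hM in
lemma odd0 (n : ℕ) : ∫ x : E3, x 2 ^ n * x 0 ∂(gaussArea 2 cyl) = 0 := by
  have h := (hP _ (pg_mul n 1)).2
  simp only [rot_mul1] at h
  exact h

omit hM in
lemma odd1 (n : ℕ) : ∫ x : E3, x 2 ^ n * x 1 ∂(gaussArea 2 cyl) = 0 := by
  have h := (hP _ (pg_mul n 0)).2
  simp only [rot_mul0] at h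
  rw [integral_neg, neg_eq_zero] at h
  exact h

end

end Vale.Agent.P218.CY
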