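import Vale.Agent.P218.CY.Mom
import Vale.Agent.P218.H63.Fin

/-! The round cylinder satisfies the hypotheses of the second-order theorem. -/

open MeasureTheory Set Filter Topology
open scoped ENNReal NNReal ContDiff

namespace Vale.Agent.P218.CY

open Vale.Agent.P218.H63 Vale.Agent.P218.H588

lemma cv_contDiff (c : ℝ) {n : WithTop ℕ∞} : ContDiff ℝ n (cv c) := by
  unfold cv
  exact contDiff_const.mul (((co 2).contDiff.pow 2).sub contDiff_const)

lemma gradient_cv_mul (a c : ℝ) (x : E3) : gradient (cv (a * c)) x = a • gradient (cv c) x := by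
  have h : cv (a * c) = fun y => a * cv c y := by
    funext y; unfold cv; ring
  have hd : DifferentiableAt ℝ (cv c) x := (cv_contDiff c (n := 1)).differentiable one_ne_zero x
  unfold gradient
  rw [h, fderiv_const_mul hd, map_smul]

lemma cubic_mul (a c : ℝ) (u : E3 → ℝ) :
    cubicForm 2 cyl cw u u (cv (a * c)) = a * cubicForm 2 cyl cw u u (cv c) := by
  unfold cubicForm
  rw [← integral_const_mul]
  refine integral_congr_ae (Eventually.of_forall fun x => ?_)
  simp only
  rw [gradient_cv_mul, show cv (a * c) x = a * cv c x by unfold cv; ring]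
  simp only [map_smul, inner_smul_right, inner_smul_left, RCLike.conj_to_real]
  ring

lemma mem_cyl_iff (x : E3) : x ∈ cyl ↔ r2 x = 2 := Iff.rfl

lemma measurableSet_cyl : MeasurableSet cyl := by
  have hc : Continuous fun x : E3 => x 0 ^ 2 + x 1 ^ 2 :=
    ((co 0).continuous.pow 2).add ((co 1).continuous.pow 2)
  have : cyl = (fun x : E3 => x 0 ^ 2 + x 1 ^ 2) ⁻¹' {2} := by
    ext x; simp [cyl]
  rw [this]
  exact hc.measurable (measurableSet_singleton 2)

lemma ae_cyl : ∀ᵐ x ∂(gaussArea 2 cyl), x ∈ cyl :=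
  gaussArea_ac (ae_restrict_mem measurableSet_cyl)

/-- the rotation mixing `ee 2` with `b0 ee 0 + b1 ee 1` -/
noncomputable def Arot (b0 b1 : ℝ) : E3 →L[ℝ] E3 :=
  (co 2).smulRight (b0 • ee 0 + b1 • ee 1) - (b0 • co 0 + b1 • co 1).smulRight (ee 2)

lemma inner3 (x y : E3) : inner ℝ x y = x 0 * y 0 + x 1 * y 1 + x 2 * y 2 := by
  rw [PiLp.inner_apply, Fin.sum_univ_three]
  simp only [RCLike.inner_apply, conj_trivial]
  ring

lemma Arot_skew (b0 b1 : ℝ) (x : E3) : inner ℝ (Arot b0 b1 x) x = 0 := by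
  rw [inner3]
  simp [Arot, ee_ap]
  ring

lemma Arot_pr (b0 b1 : ℝ) (x : E3) :
    inner ℝ (Arot b0 b1 x) (pr x) = x 2 * (b0 * x 0 + b1 * x 1) := by
  rw [inner3]
  simp [Arot, ee_ap, pr]
  ring

lemma grad_cyl (hG : RowG) {x : E3} (hx : x ∈ cyl) : gradient cw x = (√2)⁻¹ • pr x := by
  have h := (hG x (by rw [(mem_cyl_iff x).1 hx]; norm_num)).1
  rwa [(mem_cyl_iff x).1 hx] at h

theorem rowTOP (hG : RowG) (hT : RowT) (hS : RowS) (hC : RowC) (hB : RowB) : RowTOP := by
  obtain ⟨C1, htube, hthird⟩ := hT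
  obtain ⟨c, C2, q, hc, hgrow, hsm, hnorm, hjac, hone, hrot⟩ := hB
  refine ⟨cw, 1 / 2, max C1 C2, q, fun _ => cv c, ?_, ?_, ?_, ?_⟩
  · exact ⟨htube.pos, htube.smooth, htube.mem_iff, htube.norm_grad,
      fun x hx => (htube.hess_le x hx).trans (le_max_left _ _), htube.shrinker⟩
  · intro x hx
    have h1 := hthird x hx
    have h2 : 0 ≤ C1 := (norm_nonneg (fderiv ℝ (fderiv ℝ (gradient cw)) x)).trans h1
    have h3 : 1 ≤ (1 + ‖x‖) ^ q := one_le_pow₀ (by have := norm_nonneg x; linarith)
    calc _ ≤ C1 := h1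
      _ = C1 * 1 := (mul_one _).symm
      _ ≤ max C1 C2 * (1 + ‖x‖) ^ q := by
          gcongr
          exact le_max_left _ _
  · refine ⟨fun _ => hsm, fun _ x n hn => ?_, fun _ => hnorm, fun _ => hjac, fun i j => ?_,
      fun _ => hrot, fun u hu => ?_⟩
    · refine (hgrow x n hn).trans ?_
      gcongr
      exact le_max_right _ _
    · rw [if_pos (Subsingleton.elim i j)]
      exact hone
    · obtain ⟨a, b, d, h⟩ := hS u hu
      refine ⟨fun _ => a / c, Arot (√2 * b) (√2 * d), Arot_skew _ _, ?_⟩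
      filter_upwards [h, ae_cyl] with x hx hxc
      rw [hx, grad_cyl hG hxc, inner_smul_right, Arot_pr]
      simp only [cv, Finset.univ_unique, Finset.sum_singleton]
      have h2 : (√2 : ℝ) ≠ 0 := by positivity
      field_simp
      ring
  · intro a ha
    by_contra hne
    have h0 : a 0 ≠ 0 := fun h => hne (by
      funext i; rw [Subsingleton.elim i 0, h]; rfl)
    have e : (fun x : E3 => ∑ j, a j * cv c x) = cv (a 0 * c) := by
      funext x
      simp only [Finset.univ_unique, Finset.sum_singleton]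
      unfold cv
      have : (default : Fin 1) = 0 := rfl
      rw [this]
      ring
    have h1 := ha 0
    rw [e] at h1
    refine hC (a 0 * c) (mul_ne_zero h0 hc) ?_
    rw [cubic_mul, h1, mul_zero]

end Vale.Agent.P218.CY
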